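import Mathlib

/-!
# P074: helper file

Definitions (transport maps, quadratic cost, optimal maps, squared quadratic Wasserstein
distance) and the two lemmas behind the hand-in: homothetic targets and axis-parallel affine
images of the source.
-/

namespace Vale.Agent.Lib.P074

open MeasureTheory

/-- `T` is a Borel map pushing the measure `ρ` forward to `μ`. -/
def Transports {X : Type*} [MeasurableSpace X] (ρ μ : Measure X) (T : X → X) : Prop :=
  Measurable T ∧ ρ.map T = μ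

/-- The quadratic transport cost of the map `T` for the source measure `ρ`. -/
noncomputable def cost {X : Type*} [NormedAddCommGroup X] [MeasurableSpace X]
    (ρ : Measure X) (T : X → X) : ℝ := ∫ x, ‖x - T x‖ ^ 2 ∂ρ

/-- `T` is a quadratic optimal transport map from `ρ` to `μ`: it pushes `ρ` forward to `μ`, its
cost is finite, and its cost is at most the cost of every map of finite cost pushing `ρ` forward
to `μ`. -/
def IsOptimalMap {X : Type*} [NormedAddCommGroup X] [MeasurableSpace X]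
    (ρ μ : Measure X) (T : X → X) : Prop :=
  Transports ρ μ T ∧ Integrable (fun x => ‖x - T x‖ ^ 2) ρ ∧
    ∀ S : X → X, Transports ρ μ S → Integrable (fun x => ‖x - S x‖ ^ 2) ρ → cost ρ T ≤ cost ρ S

/-- The square of the quadratic Wasserstein distance of `μ` and `ν`: the infimum of
`∫ ‖y - z‖ ^ 2 dπ` over the couplings `π` of `μ` and `ν` (measures on the product with marginals
`μ` and `ν`) of finite cost. -/
noncomputable def W2sq {X : Type*} [NormedAddCommGroup X] [MeasurableSpace X]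
    (μ ν : Measure X) : ℝ :=
  sInf {c : ℝ | ∃ π : Measure (X × X), π.map Prod.fst = μ ∧ π.map Prod.snd = ν ∧
    Integrable (fun p : X × X => ‖p.1 - p.2‖ ^ 2) π ∧ c = ∫ p, ‖p.1 - p.2‖ ^ 2 ∂π}

section

set_option linter.unusedSectionVars false

variable {X : Type*} [NormedAddCommGroup X] [InnerProductSpace ℝ X] [MeasurableSpace X]
  [BorelSpace X] [ProperSpace X] [SecondCountableTopology X]

theorem integrable_of_bdd {Ω : Type*} [MeasurableSpace Ω] (m : Measure Ω) [IsFiniteMeasure m]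
    (a b : Ω → X) (ha : Measurable a) (hb : Measurable b) (Ra Rb : ℝ)
    (hab : ∀ᵐ ω ∂m, ‖a ω‖ ≤ Ra) (hbb : ∀ᵐ ω ∂m, ‖b ω‖ ≤ Rb)
    (g : X × X → ℝ) (hg : Continuous g) : Integrable (fun ω => g (a ω, b ω)) m := by
  have hK : IsCompact ((Metric.closedBall (0 : X) Ra) ×ˢ (Metric.closedBall (0 : X) Rb)) :=
    (isCompact_closedBall _ _).prod (isCompact_closedBall _ _)
  obtain ⟨C, hC⟩ := hK.exists_bound_of_continuousOn hg.continuousOn
  refine Integrable.of_bound ((hg.measurable.comp (ha.prodMk hb)).aestronglyMeasurable) C ?_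
  filter_upwards [hab, hbb] with ω h1 h2
  exact hC (a ω, b ω) ⟨mem_closedBall_zero_iff.2 h1, mem_closedBall_zero_iff.2 h2⟩

theorem pointwise_cost (lam : ℝ) (hlam : 0 < lam) (v a b : X) :
    ‖a - (lam • b + v)‖ ^ 2 = lam * ‖a - b‖ ^ 2 + (‖a - v‖ ^ 2 - lam * ‖a‖ ^ 2)
      + (2 * lam * inner ℝ v b + (lam ^ 2 - lam) * ‖b‖ ^ 2) := by
  have h1 : a - (lam • b + v) = (a - v) - lam • b := by abel
  rw [h1, norm_sub_sq_real, norm_sub_sq_real a b, norm_smul, real_inner_smul_right,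
    inner_sub_left, Real.norm_eq_abs, abs_of_pos hlam]
  ring

theorem pointwise_lower (lam : ℝ) (hlam : 0 < lam) (v y z : X) :
    ((1 - lam) * ‖y‖ ^ 2 - 2 * inner ℝ v y) + (‖z‖ ^ 2 - ‖z - v‖ ^ 2 / lam) ≤ ‖y - z‖ ^ 2 := by
  have h0 : 0 ≤ ‖lam • y - (z - v)‖ ^ 2 / lam := by positivity
  have h1 : ‖lam • y - (z - v)‖ ^ 2 / lam
      = lam * ‖y‖ ^ 2 - 2 * inner ℝ y (z - v) + ‖z - v‖ ^ 2 / lam := by
    rw [norm_sub_sq_real, norm_smul, real_inner_smul_left, Real.norm_eq_abs, abs_of_pos hlam]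
    field_simp
  have h2 : ‖y - z‖ ^ 2 = ‖y‖ ^ 2 - 2 * inner ℝ y z + ‖z‖ ^ 2 := norm_sub_sq_real y z
  have h3 : inner ℝ y (z - v) = inner ℝ y z - inner ℝ v y := by
    rw [inner_sub_right, real_inner_comm v y]
  rw [h1, h3] at h0
  rw [h2]
  linarith

theorem pointwise_eq (lam : ℝ) (hlam : 0 < lam) (v y : X) :
    ((1 - lam) * ‖y‖ ^ 2 - 2 * inner ℝ v y)
        + (‖lam • y + v‖ ^ 2 - ‖(lam • y + v) - v‖ ^ 2 / lam)
      = ‖(lam • y + v) - y‖ ^ 2 := by
  have e1 : (lam • y + v) - v = lam • y := by abel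
  have e2 : (lam • y + v) - y = (lam - 1) • y + v := by rw [sub_smul, one_smul]; abel
  rw [e1, e2, norm_add_sq_real, norm_add_sq_real, norm_smul, norm_smul, real_inner_smul_left,
    real_inner_smul_left, Real.norm_eq_abs, Real.norm_eq_abs, abs_of_pos hlam,
    real_inner_comm v y]
  simp only [mul_pow, sq_abs]
  field_simp
  ring

theorem ae_bdd_of_transports {ρ μ : Measure X} {s : X → X} (hs : Transports ρ μ s) {R : ℝ}
    (hμ : ∀ᵐ y ∂μ, ‖y‖ ≤ R) : ∀ᵐ x ∂ρ, ‖s x‖ ≤ R := by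
  have h : ∀ᵐ y ∂(ρ.map s), ‖y‖ ≤ R := by rw [hs.2]; exact hμ
  exact ae_of_ae_map hs.1.aemeasurable h

theorem cost_affine {ρ μ : Measure X} [IsProbabilityMeasure ρ] {R : ℝ}
    (hρ : ∀ᵐ x ∂ρ, ‖x‖ ≤ R) (hμ : ∀ᵐ y ∂μ, ‖y‖ ≤ R) (lam : ℝ) (hlam : 0 < lam) (v : X)
    {s : X → X} (hs : Transports ρ μ s) :
    cost ρ (fun x => lam • s x + v)
      = lam * cost ρ s + (∫ x, (‖x - v‖ ^ 2 - lam * ‖x‖ ^ 2) ∂ρ)
        + ∫ y, (2 * lam * inner ℝ v y + (lam ^ 2 - lam) * ‖y‖ ^ 2) ∂μ := by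
  have hsb := ae_bdd_of_transports hs hμ
  have i1 : Integrable (fun x => ‖x - s x‖ ^ 2) ρ :=
    integrable_of_bdd ρ id s measurable_id hs.1 R R hρ hsb (fun p => ‖p.1 - p.2‖ ^ 2)
      (by fun_prop)
  have i2 : Integrable (fun x => ‖x - v‖ ^ 2 - lam * ‖x‖ ^ 2) ρ :=
    integrable_of_bdd ρ id s measurable_id hs.1 R R hρ hsb
      (fun p => ‖p.1 - v‖ ^ 2 - lam * ‖p.1‖ ^ 2) (by fun_prop)
  have i3 : Integrable (fun x => 2 * lam * inner ℝ v (s x) + (lam ^ 2 - lam) * ‖s x‖ ^ 2) ρ :=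
    integrable_of_bdd ρ id s measurable_id hs.1 R R hρ hsb
      (fun p => 2 * lam * inner ℝ v p.2 + (lam ^ 2 - lam) * ‖p.2‖ ^ 2) (by fun_prop)
  have hmap : ∫ y, (2 * lam * inner ℝ v y + (lam ^ 2 - lam) * ‖y‖ ^ 2) ∂μ
      = ∫ x, (2 * lam * inner ℝ v (s x) + (lam ^ 2 - lam) * ‖s x‖ ^ 2) ∂ρ := by
    rw [← hs.2]
    exact integral_map hs.1.aemeasurable
      (by fun_prop : Continuous fun y : X =>
        2 * lam * inner ℝ v y + (lam ^ 2 - lam) * ‖y‖ ^ 2).aestronglyMeasurable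
  have i12 : Integrable
      (fun x => lam * ‖x - s x‖ ^ 2 + (‖x - v‖ ^ 2 - lam * ‖x‖ ^ 2)) ρ :=
    (i1.const_mul lam).add i2
  have a1 : ∫ x, (lam * ‖x - s x‖ ^ 2 + (‖x - v‖ ^ 2 - lam * ‖x‖ ^ 2)
        + (2 * lam * inner ℝ v (s x) + (lam ^ 2 - lam) * ‖s x‖ ^ 2)) ∂ρ
      = ∫ x, (lam * ‖x - s x‖ ^ 2 + (‖x - v‖ ^ 2 - lam * ‖x‖ ^ 2)) ∂ρ
        + ∫ x, (2 * lam * inner ℝ v (s x) + (lam ^ 2 - lam) * ‖s x‖ ^ 2) ∂ρ :=
    integral_add i12 i3
  have a2 : ∫ x, (lam * ‖x - s x‖ ^ 2 + (‖x - v‖ ^ 2 - lam * ‖x‖ ^ 2)) ∂ρ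
      = ∫ x, lam * ‖x - s x‖ ^ 2 ∂ρ + ∫ x, (‖x - v‖ ^ 2 - lam * ‖x‖ ^ 2) ∂ρ :=
    integral_add (i1.const_mul lam) i2
  have a3 : ∫ x, lam * ‖x - s x‖ ^ 2 ∂ρ = lam * ∫ x, ‖x - s x‖ ^ 2 ∂ρ :=
    integral_const_mul lam _
  unfold cost
  rw [hmap, ← a3, ← a2, ← a1]
  refine integral_congr_ae (Filter.Eventually.of_forall fun x => ?_)
  exact pointwise_cost lam hlam v x (s x)

theorem homothety_main {ρ μ : Measure X} [IsProbabilityMeasure ρ] [IsProbabilityMeasure μ]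
    (R : ℝ) (hρ : ∀ᵐ x ∂ρ, ‖x‖ ≤ R) (hμ : ∀ᵐ y ∂μ, ‖y‖ ≤ R)
    (T : X → X) (hT : IsOptimalMap ρ μ T) (lam : ℝ) (hlam : 0 < lam) (v : X) :
    IsOptimalMap ρ (μ.map (fun y => lam • y + v)) (fun x => lam • T x + v) ∧
      ∫ x, ‖(lam • T x + v) - T x‖ ^ 2 ∂ρ = W2sq μ (μ.map (fun y => lam • y + v)) := by
  have hAc : Continuous (fun y : X => lam • y + v) := by fun_prop
  have hA : Measurable (fun y : X => lam • y + v) := hAc.measurable
  have hB : Measurable (fun z : X => lam⁻¹ • (z - v)) :=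
    (by fun_prop : Continuous fun z : X => lam⁻¹ • (z - v)).measurable
  have hBA : (fun z : X => lam⁻¹ • (z - v)) ∘ (fun y : X => lam • y + v) = id := by
    funext y
    simp [smul_smul, inv_mul_cancel₀ hlam.ne']
  have hAB : ∀ z : X, lam • (lam⁻¹ • (z - v)) + v = z := by
    intro z
    simp [smul_smul, mul_inv_cancel₀ hlam.ne']
  have hTb := ae_bdd_of_transports hT.1 hμ
  have hST : Transports ρ (μ.map (fun y => lam • y + v)) (fun x => lam • T x + v) := by
    refine ⟨hA.comp hT.1.1, ?_⟩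
    rw [← hT.1.2, Measure.map_map hA hT.1.1]
    rfl
  constructor
  · refine ⟨hST, ?_, ?_⟩
    · exact integrable_of_bdd ρ id T measurable_id hT.1.1 R R hρ hTb
        (fun p => ‖p.1 - (lam • p.2 + v)‖ ^ 2) (by fun_prop)
    · intro S' hS' _
      have hs : Transports ρ μ (fun x => lam⁻¹ • (S' x - v)) := by
        refine ⟨hB.comp hS'.1, ?_⟩
        have h1 : ρ.map ((fun z : X => lam⁻¹ • (z - v)) ∘ S')
            = (ρ.map S').map (fun z : X => lam⁻¹ • (z - v)) := (Measure.map_map hB hS'.1).symm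
        show ρ.map ((fun z : X => lam⁻¹ • (z - v)) ∘ S') = μ
        rw [h1, hS'.2, Measure.map_map hB hA, hBA, Measure.map_id]
      have e1 : (fun x => lam • (lam⁻¹ • (S' x - v)) + v) = S' := by
        funext x
        exact hAB (S' x)
      have c1 := cost_affine hρ hμ lam hlam v hs
      have c2 := cost_affine hρ hμ lam hlam v hT.1
      have hle := hT.2.2 _ hs (integrable_of_bdd ρ id _ measurable_id hs.1 R R hρ
        (ae_bdd_of_transports hs hμ) (fun p => ‖p.1 - p.2‖ ^ 2) (by fun_prop))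
      rw [e1] at c1
      rw [c1, c2]
      have := mul_le_mul_of_nonneg_left hle hlam.le
      linarith
  · have hc0 : ∫ x, ‖(lam • T x + v) - T x‖ ^ 2 ∂ρ = ∫ y, ‖(lam • y + v) - y‖ ^ 2 ∂μ := by
      rw [← hT.1.2]
      exact (integral_map hT.1.1.aemeasurable
        ((by fun_prop : Continuous fun y : X => ‖(lam • y + v) - y‖ ^ 2).aestronglyMeasurable)).symm
    rw [hc0]
    symm
    apply IsLeast.csInf_eq
    have hpm : Measurable (fun y : X => (y, lam • y + v)) := measurable_id.prodMk hA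
    have hcc : Continuous (fun p : X × X => ‖p.1 - p.2‖ ^ 2) := by fun_prop
    constructor
    · refine ⟨μ.map (fun y => (y, lam • y + v)), ?_, ?_, ?_, ?_⟩
      · rw [Measure.map_map measurable_fst hpm]
        exact Measure.map_id
      · rw [Measure.map_map measurable_snd hpm]
        rfl
      · refine (integrable_map_measure hcc.aestronglyMeasurable hpm.aemeasurable).2 ?_
        exact integrable_of_bdd μ id id measurable_id measurable_id R R hμ hμ
          (fun p => ‖p.1 - (lam • p.2 + v)‖ ^ 2) (by fun_prop)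
      · rw [integral_map hpm.aemeasurable hcc.aestronglyMeasurable]
        refine integral_congr_ae (Filter.Eventually.of_forall fun y => ?_)
        show ‖(lam • y + v) - y‖ ^ 2 = ‖y - (lam • y + v)‖ ^ 2
        rw [norm_sub_rev]
    · rintro c ⟨π, h1, h2, hint, rfl⟩
      have hπfin : IsFiniteMeasure π := by
        constructor
        have hu : π Set.univ = μ Set.univ := by
          rw [← h1, Measure.map_apply measurable_fst MeasurableSet.univ, Set.preimage_univ]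
        rw [hu]
        exact measure_lt_top μ _
      have hb1 : ∀ᵐ p ∂π, ‖p.1‖ ≤ R :=
        ae_of_ae_map measurable_fst.aemeasurable (by rw [h1]; exact hμ)
      have hν : ∀ᵐ z ∂(μ.map (fun y => lam • y + v)), ‖z‖ ≤ lam * R + ‖v‖ := by
        rw [ae_map_iff hA.aemeasurable (measurableSet_le measurable_norm measurable_const)]
        filter_upwards [hμ] with y hy
        calc ‖lam • y + v‖ ≤ ‖lam • y‖ + ‖v‖ := norm_add_le _ _
          _ = lam * ‖y‖ + ‖v‖ := by rw [norm_smul, Real.norm_eq_abs, abs_of_pos hlam]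
          _ ≤ lam * R + ‖v‖ := by gcongr
      have hb2 : ∀ᵐ p ∂π, ‖p.2‖ ≤ lam * R + ‖v‖ :=
        ae_of_ae_map measurable_snd.aemeasurable (by rw [h2]; exact hν)
      have hgc : Continuous (fun y : X => (1 - lam) * ‖y‖ ^ 2 - 2 * inner ℝ v y) := by fun_prop
      have hhc : Continuous (fun z : X => ‖z‖ ^ 2 - ‖z - v‖ ^ 2 / lam) := by fun_prop
      have ig : Integrable (fun p : X × X => (1 - lam) * ‖p.1‖ ^ 2 - 2 * inner ℝ v p.1) π :=
        integrable_of_bdd π Prod.fst Prod.snd measurable_fst measurable_snd _ _ hb1 hb2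
          (fun p => (1 - lam) * ‖p.1‖ ^ 2 - 2 * inner ℝ v p.1) (by fun_prop)
      have ih : Integrable (fun p : X × X => ‖p.2‖ ^ 2 - ‖p.2 - v‖ ^ 2 / lam) π :=
        integrable_of_bdd π Prod.fst Prod.snd measurable_fst measurable_snd _ _ hb1 hb2
          (fun p => ‖p.2‖ ^ 2 - ‖p.2 - v‖ ^ 2 / lam) (by fun_prop)
      have eg : ∫ p, ((1 - lam) * ‖p.1‖ ^ 2 - 2 * inner ℝ v p.1) ∂π
          = ∫ y, ((1 - lam) * ‖y‖ ^ 2 - 2 * inner ℝ v y) ∂μ := by
        rw [← h1]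
        exact (integral_map measurable_fst.aemeasurable hgc.aestronglyMeasurable).symm
      have eh : ∫ p, (‖p.2‖ ^ 2 - ‖p.2 - v‖ ^ 2 / lam) ∂π
          = ∫ y, (‖lam • y + v‖ ^ 2 - ‖(lam • y + v) - v‖ ^ 2 / lam) ∂μ := by
        rw [← integral_map hA.aemeasurable hhc.aestronglyMeasurable, ← h2]
        exact (integral_map measurable_snd.aemeasurable hhc.aestronglyMeasurable).symm
      have igμ : Integrable (fun y : X => (1 - lam) * ‖y‖ ^ 2 - 2 * inner ℝ v y) μ :=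
        integrable_of_bdd μ id id measurable_id measurable_id R R hμ hμ
          (fun p => (1 - lam) * ‖p.1‖ ^ 2 - 2 * inner ℝ v p.1) (by fun_prop)
      have ihμ : Integrable
          (fun y : X => ‖lam • y + v‖ ^ 2 - ‖(lam • y + v) - v‖ ^ 2 / lam) μ :=
        integrable_of_bdd μ id id measurable_id measurable_id R R hμ hμ
          (fun p => ‖lam • p.1 + v‖ ^ 2 - ‖(lam • p.1 + v) - v‖ ^ 2 / lam) (by fun_prop)
      calc ∫ y, ‖(lam • y + v) - y‖ ^ 2 ∂μ
          = ∫ y, (((1 - lam) * ‖y‖ ^ 2 - 2 * inner ℝ v y)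
              + (‖lam • y + v‖ ^ 2 - ‖(lam • y + v) - v‖ ^ 2 / lam)) ∂μ :=
            integral_congr_ae (Filter.Eventually.of_forall fun y =>
              (pointwise_eq lam hlam v y).symm)
        _ = ∫ y, ((1 - lam) * ‖y‖ ^ 2 - 2 * inner ℝ v y) ∂μ
              + ∫ y, (‖lam • y + v‖ ^ 2 - ‖(lam • y + v) - v‖ ^ 2 / lam) ∂μ :=
            integral_add igμ ihμ
        _ = ∫ p, ((1 - lam) * ‖p.1‖ ^ 2 - 2 * inner ℝ v p.1) ∂π
              + ∫ p, (‖p.2‖ ^ 2 - ‖p.2 - v‖ ^ 2 / lam) ∂π := by rw [eg, eh]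
        _ = ∫ p, (((1 - lam) * ‖p.1‖ ^ 2 - 2 * inner ℝ v p.1)
              + (‖p.2‖ ^ 2 - ‖p.2 - v‖ ^ 2 / lam)) ∂π := (integral_add ig ih).symm
        _ ≤ ∫ p, ‖p.1 - p.2‖ ^ 2 ∂π :=
            integral_mono (ig.add ih) hint (fun p => pointwise_lower lam hlam v p.1 p.2)

end


section

set_option linter.unusedSectionVars false

variable {X : Type*} [NormedAddCommGroup X] [InnerProductSpace ℝ X] [MeasurableSpace X]
  [BorelSpace X] [ProperSpace X] [SecondCountableTopology X]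

theorem exists_bound_image (T : X → X) (hT : Continuous T) (R : ℝ) :
    ∃ R' : ℝ, ∀ x, ‖x‖ ≤ R → ‖T x‖ ≤ R' := by
  obtain ⟨C, hC⟩ :=
    (isCompact_closedBall (0 : X) R).exists_bound_of_continuousOn hT.continuousOn
  exact ⟨C, fun x hx => hC x (mem_closedBall_zero_iff.2 hx)⟩

theorem ae_bdd_map {μ : Measure X} (T : X → X) (hT : Continuous T) {R R' : ℝ}
    (hR' : ∀ x, ‖x‖ ≤ R → ‖T x‖ ≤ R') (hμ : ∀ᵐ x ∂μ, ‖x‖ ≤ R) :
    ∀ᵐ y ∂(μ.map T), ‖y‖ ≤ R' := by
  rw [ae_map_iff hT.measurable.aemeasurable (measurableSet_le measurable_norm measurable_const)]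
  filter_upwards [hμ] with x hx using hR' x hx

theorem integral_norm_sub_sq {Ω : Type*} [MeasurableSpace Ω] (m : Measure Ω) [IsFiniteMeasure m]
    (a b : Ω → X) (ha : Measurable a) (hb : Measurable b) (Ra Rb : ℝ)
    (hab : ∀ᵐ ω ∂m, ‖a ω‖ ≤ Ra) (hbb : ∀ᵐ ω ∂m, ‖b ω‖ ≤ Rb) :
    ∫ ω, ‖a ω - b ω‖ ^ 2 ∂m
      = ∫ ω, ‖a ω‖ ^ 2 ∂m + ∫ ω, ‖b ω‖ ^ 2 ∂m - 2 * ∫ ω, inner ℝ (a ω) (b ω) ∂m := by
  have i1 : Integrable (fun ω => ‖a ω‖ ^ 2) m :=
    integrable_of_bdd m a b ha hb Ra Rb hab hbb (fun p => ‖p.1‖ ^ 2) (by fun_prop)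
  have i2 : Integrable (fun ω => ‖b ω‖ ^ 2) m :=
    integrable_of_bdd m a b ha hb Ra Rb hab hbb (fun p => ‖p.2‖ ^ 2) (by fun_prop)
  have i3 : Integrable (fun ω => inner ℝ (a ω) (b ω)) m :=
    integrable_of_bdd m a b ha hb Ra Rb hab hbb (fun p => inner ℝ p.1 p.2) (by fun_prop)
  have i12 : Integrable (fun ω => ‖a ω‖ ^ 2 + ‖b ω‖ ^ 2) m := i1.add i2
  have a1 : ∫ ω, (‖a ω‖ ^ 2 + ‖b ω‖ ^ 2 - 2 * inner ℝ (a ω) (b ω)) ∂m
      = ∫ ω, (‖a ω‖ ^ 2 + ‖b ω‖ ^ 2) ∂m - ∫ ω, 2 * inner ℝ (a ω) (b ω) ∂m :=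
    integral_sub i12 (i3.const_mul 2)
  have a2 : ∫ ω, (‖a ω‖ ^ 2 + ‖b ω‖ ^ 2) ∂m = ∫ ω, ‖a ω‖ ^ 2 ∂m + ∫ ω, ‖b ω‖ ^ 2 ∂m :=
    integral_add i1 i2
  have a3 : ∫ ω, 2 * inner ℝ (a ω) (b ω) ∂m = 2 * ∫ ω, inner ℝ (a ω) (b ω) ∂m :=
    integral_const_mul 2 _
  rw [← a3, ← a2, ← a1]
  refine integral_congr_ae (Filter.Eventually.of_forall fun ω => ?_)
  show ‖a ω - b ω‖ ^ 2 = ‖a ω‖ ^ 2 + ‖b ω‖ ^ 2 - 2 * inner ℝ (a ω) (b ω)
  rw [norm_sub_sq_real]
  ring

/-- A continuous map with a Fenchel-Young certificate is a quadratic optimal transport map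
onto its image measure. -/
theorem optimal_of_certificate {ρ : Measure X} [IsProbabilityMeasure ρ] {R : ℝ}
    (hρ : ∀ᵐ x ∂ρ, ‖x‖ ≤ R) (T : X → X) (hT : Continuous T) (Φ Ψ : X → ℝ)
    (hΦ : Continuous Φ) (hΨ : Continuous Ψ)
    (hle : ∀ x y, inner ℝ x y ≤ Φ x + Ψ y) (heq : ∀ x, inner ℝ x (T x) = Φ x + Ψ (T x)) :
    IsOptimalMap ρ (ρ.map T) T := by
  obtain ⟨R', hR'⟩ := exists_bound_image T hT R
  have hTb : ∀ᵐ x ∂ρ, ‖T x‖ ≤ R' := by
    filter_upwards [hρ] with x hx using hR' x hx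
  have hνb := ae_bdd_map T hT hR' hρ
  have hTt : Transports ρ (ρ.map T) T := ⟨hT.measurable, rfl⟩
  have key : ∀ S : X → X, Transports ρ (ρ.map T) S →
      cost ρ S = ∫ x, ‖x‖ ^ 2 ∂ρ + ∫ y, ‖y‖ ^ 2 ∂(ρ.map T)
        - 2 * ∫ x, inner ℝ x (S x) ∂ρ := by
    intro S hS
    have hSb : ∀ᵐ x ∂ρ, ‖S x‖ ≤ R' := ae_bdd_of_transports hS hνb
    have e2 : ∫ y, ‖y‖ ^ 2 ∂(ρ.map S) = ∫ x, ‖S x‖ ^ 2 ∂ρ :=
      integral_map hS.1.aemeasurable
        (by fun_prop : Continuous fun y : X => ‖y‖ ^ 2).aestronglyMeasurable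
    rw [hS.2] at e2
    rw [e2]
    exact integral_norm_sub_sq ρ id S measurable_id hS.1 R R' hρ hSb
  refine ⟨hTt, ?_, ?_⟩
  · exact integrable_of_bdd ρ id T measurable_id hT.measurable R R' hρ hTb
      (fun p => ‖p.1 - p.2‖ ^ 2) (by fun_prop)
  · intro S hS _
    have hSb : ∀ᵐ x ∂ρ, ‖S x‖ ≤ R' := ae_bdd_of_transports hS hνb
    rw [key S hS, key T hTt]
    have i3 : Integrable (fun x => inner ℝ x (S x)) ρ :=
      integrable_of_bdd ρ id S measurable_id hS.1 R R' hρ hSb (fun p => inner ℝ p.1 p.2)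
        (by fun_prop)
    have iΦ : Integrable Φ ρ :=
      integrable_of_bdd ρ id id measurable_id measurable_id R R hρ hρ (fun p => Φ p.1)
        (by fun_prop)
    have iΨS : Integrable (fun x => Ψ (S x)) ρ :=
      integrable_of_bdd ρ id S measurable_id hS.1 R R' hρ hSb (fun p => Ψ p.2) (by fun_prop)
    have iΨT : Integrable (fun x => Ψ (T x)) ρ :=
      integrable_of_bdd ρ id T measurable_id hT.measurable R R' hρ hTb (fun p => Ψ p.2)
        (by fun_prop)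
    have eS : ∫ y, Ψ y ∂(ρ.map S) = ∫ x, Ψ (S x) ∂ρ :=
      integral_map hS.1.aemeasurable hΨ.aestronglyMeasurable
    have eT : ∫ y, Ψ y ∂(ρ.map T) = ∫ x, Ψ (T x) ∂ρ :=
      integral_map hT.measurable.aemeasurable hΨ.aestronglyMeasurable
    rw [hS.2] at eS
    have h1 : ∫ x, inner ℝ x (S x) ∂ρ ≤ ∫ x, (Φ x + Ψ (S x)) ∂ρ :=
      integral_mono i3 (iΦ.add iΨS) (fun x => hle x (S x))
    have h2 : ∫ x, inner ℝ x (T x) ∂ρ = ∫ x, (Φ x + Ψ (T x)) ∂ρ :=
      integral_congr_ae (Filter.Eventually.of_forall heq)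
    have h3 : ∫ x, (Φ x + Ψ (S x)) ∂ρ = ∫ x, Φ x ∂ρ + ∫ x, Ψ (S x) ∂ρ := integral_add iΦ iΨS
    have h4 : ∫ x, (Φ x + Ψ (T x)) ∂ρ = ∫ x, Φ x ∂ρ + ∫ x, Ψ (T x) ∂ρ := integral_add iΦ iΨT
    linarith

/-- The squared quadratic Wasserstein distance between a measure and its image under a
continuous map with a Fenchel-Young certificate. -/
theorem w2_of_certificate {μ : Measure X} [IsProbabilityMeasure μ] {R : ℝ}
    (hμ : ∀ᵐ y ∂μ, ‖y‖ ≤ R) (M : X → X) (hM : Continuous M) (Φ Ψ : X → ℝ)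
    (hΦ : Continuous Φ) (hΨ : Continuous Ψ)
    (hle : ∀ x y, inner ℝ x y ≤ Φ x + Ψ y) (heq : ∀ x, inner ℝ x (M x) = Φ x + Ψ (M x)) :
    W2sq μ (μ.map M) = ∫ y, ‖y - M y‖ ^ 2 ∂μ := by
  obtain ⟨R', hR'⟩ := exists_bound_image M hM R
  have hMb : ∀ᵐ y ∂μ, ‖M y‖ ≤ R' := by
    filter_upwards [hμ] with y hy using hR' y hy
  have hνb := ae_bdd_map M hM hR' hμ
  have hpm : Measurable (fun y : X => (y, M y)) := measurable_id.prodMk hM.measurable
  have hcc : Continuous (fun p : X × X => ‖p.1 - p.2‖ ^ 2) := by fun_prop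
  apply IsLeast.csInf_eq
  constructor
  · refine ⟨μ.map (fun y => (y, M y)), ?_, ?_, ?_, ?_⟩
    · rw [Measure.map_map measurable_fst hpm]
      exact Measure.map_id
    · rw [Measure.map_map measurable_snd hpm]
      rfl
    · refine (integrable_map_measure hcc.aestronglyMeasurable hpm.aemeasurable).2 ?_
      exact integrable_of_bdd μ id M measurable_id hM.measurable R R' hμ hMb
        (fun p => ‖p.1 - p.2‖ ^ 2) (by fun_prop)
    · rw [integral_map hpm.aemeasurable hcc.aestronglyMeasurable]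
  · rintro c ⟨π, h1, h2, hint, rfl⟩
    have hπfin : IsFiniteMeasure π := by
      constructor
      have hu : π Set.univ = μ Set.univ := by
        rw [← h1, Measure.map_apply measurable_fst MeasurableSet.univ, Set.preimage_univ]
      rw [hu]
      exact measure_lt_top μ _
    have hb1 : ∀ᵐ p ∂π, ‖p.1‖ ≤ R :=
      ae_of_ae_map measurable_fst.aemeasurable (by rw [h1]; exact hμ)
    have hb2 : ∀ᵐ p ∂π, ‖p.2‖ ≤ R' :=
      ae_of_ae_map measurable_snd.aemeasurable (by rw [h2]; exact hνb)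
    have j3 : Integrable (fun p : X × X => inner ℝ p.1 p.2) π :=
      integrable_of_bdd π Prod.fst Prod.snd measurable_fst measurable_snd R R' hb1 hb2
        (fun p => inner ℝ p.1 p.2) (by fun_prop)
    have jΦ : Integrable (fun p : X × X => Φ p.1) π :=
      integrable_of_bdd π Prod.fst Prod.snd measurable_fst measurable_snd R R' hb1 hb2
        (fun p => Φ p.1) (by fun_prop)
    have jΨ : Integrable (fun p : X × X => Ψ p.2) π :=
      integrable_of_bdd π Prod.fst Prod.snd measurable_fst measurable_snd R R' hb1 hb2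
        (fun p => Ψ p.2) (by fun_prop)
    have iΦ : Integrable Φ μ :=
      integrable_of_bdd μ id id measurable_id measurable_id R R hμ hμ (fun p => Φ p.1)
        (by fun_prop)
    have iΨ : Integrable (fun y => Ψ (M y)) μ :=
      integrable_of_bdd μ id M measurable_id hM.measurable R R' hμ hMb (fun p => Ψ p.2)
        (by fun_prop)
    have hn : Continuous (fun y : X => ‖y‖ ^ 2) := by fun_prop
    have m1 : ∫ y, ‖y‖ ^ 2 ∂(π.map Prod.fst) = ∫ p, ‖p.1‖ ^ 2 ∂π :=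
      integral_map measurable_fst.aemeasurable hn.aestronglyMeasurable
    have m2 : ∫ z, ‖z‖ ^ 2 ∂(π.map Prod.snd) = ∫ p, ‖p.2‖ ^ 2 ∂π :=
      integral_map measurable_snd.aemeasurable hn.aestronglyMeasurable
    have m2' : ∫ z, ‖z‖ ^ 2 ∂(μ.map M) = ∫ y, ‖M y‖ ^ 2 ∂μ :=
      integral_map hM.measurable.aemeasurable hn.aestronglyMeasurable
    have mΦ : ∫ y, Φ y ∂(π.map Prod.fst) = ∫ p, Φ p.1 ∂π :=
      integral_map measurable_fst.aemeasurable hΦ.aestronglyMeasurable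
    have mΨ : ∫ z, Ψ z ∂(π.map Prod.snd) = ∫ p, Ψ p.2 ∂π :=
      integral_map measurable_snd.aemeasurable hΨ.aestronglyMeasurable
    have mΨ' : ∫ z, Ψ z ∂(μ.map M) = ∫ y, Ψ (M y) ∂μ :=
      integral_map hM.measurable.aemeasurable hΨ.aestronglyMeasurable
    rw [h1] at m1 mΦ
    rw [h2] at m2 mΨ
    have eπ := integral_norm_sub_sq π Prod.fst Prod.snd measurable_fst measurable_snd R R'
      hb1 hb2
    have eμ := integral_norm_sub_sq μ id M measurable_id hM.measurable R R' hμ hMb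
    have le1 : ∫ p, inner ℝ p.1 p.2 ∂π ≤ ∫ p, (Φ p.1 + Ψ p.2) ∂π :=
      integral_mono j3 (jΦ.add jΨ) (fun p => hle p.1 p.2)
    have le2 : ∫ p, (Φ p.1 + Ψ p.2) ∂π = ∫ p, Φ p.1 ∂π + ∫ p, Ψ p.2 ∂π := integral_add jΦ jΨ
    have eq1 : ∫ y, inner ℝ y (M y) ∂μ = ∫ y, (Φ y + Ψ (M y)) ∂μ :=
      integral_congr_ae (Filter.Eventually.of_forall heq)
    have eq2 : ∫ y, (Φ y + Ψ (M y)) ∂μ = ∫ y, Φ y ∂μ + ∫ y, Ψ (M y) ∂μ := integral_add iΦ iΨ
    simp only [id] at eμ
    rw [eπ, eμ]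
    linarith

end

/-- The axis-parallel affine map `x ↦ (c i * x i + e i)_i` of `ℝ^d`. -/
noncomputable def diagAffine {d : ℕ} (c e : Fin d → ℝ) (x : EuclideanSpace ℝ (Fin d)) :
    EuclideanSpace ℝ (Fin d) := WithLp.toLp 2 (fun i => c i * x i + e i)

theorem diagAffine_apply {d : ℕ} (c e : Fin d → ℝ) (x : EuclideanSpace ℝ (Fin d)) (i : Fin d) :
    diagAffine c e x i = c i * x i + e i := rfl

theorem continuous_coord {d : ℕ} (i : Fin d) :
    Continuous (fun x : EuclideanSpace ℝ (Fin d) => x i) :=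
  PiLp.continuous_apply 2 _ i

theorem continuous_diagAffine {d : ℕ} (c e : Fin d → ℝ) : Continuous (diagAffine c e) := by
  unfold diagAffine
  exact (PiLp.continuous_toLp 2 _).comp
    (continuous_pi fun i => (continuous_const.mul (continuous_coord i)).add continuous_const)

theorem inner_eq_sum {d : ℕ} (x y : EuclideanSpace ℝ (Fin d)) :
    inner ℝ x y = ∑ i, x i * y i := by
  rw [PiLp.inner_apply]
  refine Finset.sum_congr rfl fun i _ => ?_
  simp [mul_comm]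

/-- The Fenchel-Young certificate of an axis-parallel affine map with positive factors. -/
theorem certificate {d : ℕ} (c e : Fin d → ℝ) (hc : ∀ i, 0 < c i) :
    ∃ Φ Ψ : EuclideanSpace ℝ (Fin d) → ℝ, Continuous Φ ∧ Continuous Ψ ∧
      (∀ x y, inner ℝ x y ≤ Φ x + Ψ y) ∧
      ∀ x, inner ℝ x (diagAffine c e x) = Φ x + Ψ (diagAffine c e x) := by
  refine ⟨fun x => ∑ i, (c i * x i ^ 2 / 2 + e i * x i),
    fun y => ∑ i, (y i - e i) ^ 2 / (2 * c i), ?_, ?_, ?_, ?_⟩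
  · exact continuous_finsetSum _ fun i _ =>
      ((continuous_const.mul ((continuous_coord i).pow 2)).div_const 2).add
        (continuous_const.mul (continuous_coord i))
  · exact continuous_finsetSum _ fun i _ =>
      (((continuous_coord i).sub continuous_const).pow 2).div_const _
  · intro x y
    rw [inner_eq_sum, ← Finset.sum_add_distrib]
    refine Finset.sum_le_sum fun i _ => ?_
    have hci := hc i
    have h0 : 0 ≤ (y i - e i - c i * x i) ^ 2 / (2 * c i) := by positivity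
    have h1 : (y i - e i - c i * x i) ^ 2 / (2 * c i)
        = c i * x i ^ 2 / 2 + e i * x i + (y i - e i) ^ 2 / (2 * c i) - x i * y i := by
      field_simp
      ring
    linarith
  · intro x
    rw [inner_eq_sum, ← Finset.sum_add_distrib]
    refine Finset.sum_congr rfl fun i _ => ?_
    have hci := hc i
    rw [diagAffine_apply]
    field_simp
    ring

theorem axis_main (d : ℕ) (ρ : Measure (EuclideanSpace ℝ (Fin d))) [IsProbabilityMeasure ρ]
    (R : ℝ) (hρ : ∀ᵐ x ∂ρ, ‖x‖ ≤ R) (a b u w : Fin d → ℝ)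
    (ha : ∀ i, 0 < a i) (hb : ∀ i, 0 < b i) :
    IsOptimalMap ρ (ρ.map (diagAffine a u)) (diagAffine a u) ∧
    IsOptimalMap ρ (ρ.map (diagAffine b w)) (diagAffine b w) ∧
    ∫ x, ‖diagAffine a u x - diagAffine b w x‖ ^ 2 ∂ρ
      = W2sq (ρ.map (diagAffine a u)) (ρ.map (diagAffine b w)) := by
  obtain ⟨Φa, Ψa, hΦa, hΨa, hlea, heqa⟩ := certificate a u ha
  obtain ⟨Φb, Ψb, hΦb, hΨb, hleb, heqb⟩ := certificate b w hb
  have hA := continuous_diagAffine a u
  have hB := continuous_diagAffine b w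
  refine ⟨optimal_of_certificate hρ _ hA Φa Ψa hΦa hΨa hlea heqa,
    optimal_of_certificate hρ _ hB Φb Ψb hΦb hΨb hleb heqb, ?_⟩
  -- the map from the first target to the second
  have hm : ∀ i, 0 < b i / a i := fun i => div_pos (hb i) (ha i)
  obtain ⟨Φm, Ψm, hΦm, hΨm, hlem, heqm⟩ :=
    certificate (fun i => b i / a i) (fun i => w i - b i / a i * u i) hm
  have hM := continuous_diagAffine (fun i => b i / a i) (fun i => w i - b i / a i * u i)
  have hcomp : ∀ x, diagAffine (fun i => b i / a i) (fun i => w i - b i / a i * u i)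
      (diagAffine a u x) = diagAffine b w x := by
    intro x
    ext i
    rw [diagAffine_apply, diagAffine_apply, diagAffine_apply]
    have hai := (ha i).ne'
    field_simp
    ring
  have hmapB : ρ.map (diagAffine b w) = (ρ.map (diagAffine a u)).map
      (diagAffine (fun i => b i / a i) (fun i => w i - b i / a i * u i)) := by
    rw [Measure.map_map hM.measurable hA.measurable]
    congr 1
    funext x
    exact (hcomp x).symm
  obtain ⟨R', hR'⟩ := exists_bound_image (diagAffine a u) hA R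
  have hμb := ae_bdd_map (diagAffine a u) hA hR' hρ
  have : IsProbabilityMeasure (ρ.map (diagAffine a u)) :=
    Measure.isProbabilityMeasure_map hA.measurable.aemeasurable
  rw [hmapB, w2_of_certificate hμb _ hM Φm Ψm hΦm hΨm hlem heqm,
    integral_map hA.measurable.aemeasurable
      ((by fun_prop : Continuous fun y : EuclideanSpace ℝ (Fin d) =>
        ‖y - diagAffine (fun i => b i / a i) (fun i => w i - b i / a i * u i) y‖ ^ 2)).aestronglyMeasurable]
  refine integral_congr_ae (Filter.Eventually.of_forall fun x => ?_)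
  show ‖diagAffine a u x - diagAffine b w x‖ ^ 2 = ‖diagAffine a u x
    - diagAffine (fun i => b i / a i) (fun i => w i - b i / a i * u i) (diagAffine a u x)‖ ^ 2
  rw [hcomp x]

end Vale.Agent.Lib.P074
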